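import Mathlib

/-! P254r, row R4: Hoelder. -/

namespace Vale.Agent.P254r

open MeasureTheory
open scoped ENNReal

/-- [R4] Jens.lean: Hoelder -/
theorem jens {m : ℕ} (hm : 2 ≤ m) {a : ℝ → ℝ≥0∞} (ha : Measurable a) :
    (∫⁻ t, a t ^ (1 + 2 / (m : ℝ))) ^ m ≤ (∫⁻ t, a t) ^ (m - 2) * (∫⁻ t, a t ^ 2) ^ 2 := by
  have hm0 : (0 : ℝ) < m := by exact_mod_cast (by omega : 0 < m)
  have hm2 : (2 : ℝ) ≤ m := by exact_mod_cast hm
  have h2 : 0 ≤ 2 / (m : ℝ) := by positivity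
  have h1 : 0 ≤ 1 - 2 / (m : ℝ) := by
    rw [sub_nonneg, div_le_one hm0]; exact hm2
  have key := ENNReal.lintegral_mul_norm_pow_le (μ := volume) (f := a) (g := fun t => a t ^ 2)
    ha.aemeasurable (ha.pow_const 2).aemeasurable h1 h2 (by ring)
  have hpt : ∀ t, a t ^ (1 + 2 / (m : ℝ)) = a t ^ (1 - 2 / (m : ℝ)) * (a t ^ 2) ^ (2 / (m : ℝ)) := by
    intro t
    rw [← ENNReal.rpow_natCast (a t) 2, ← ENNReal.rpow_mul,
      ← ENNReal.rpow_add_of_nonneg _ _ h1 (by positivity)]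
    congr 1
    push_cast
    ring
  simp only [hpt]
  refine (pow_le_pow_left' key m).trans (le_of_eq ?_)
  rw [mul_pow, ← ENNReal.rpow_natCast, ← ENNReal.rpow_mul, ← ENNReal.rpow_natCast (_ ^ (2 / (m : ℝ))),
    ← ENNReal.rpow_mul, ← ENNReal.rpow_natCast _ (m - 2), ← ENNReal.rpow_natCast _ 2]
  congr 2
  · rw [Nat.cast_sub hm]
    push_cast
    field_simp
  · push_cast
    field_simp

end Vale.Agent.P254r
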