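import Mathlib

/-! P254r, row R9: the numerical inequality. -/

namespace Vale.Agent.P254r

namespace Num

theorem exp_two_lt : Real.exp 2 < 7.39 := by
  have h : Real.exp 2 = Real.exp 1 * Real.exp 1 := by rw [← Real.exp_add]; norm_num
  have h1 := Real.exp_one_lt_d9
  have h2 := Real.exp_pos 1
  rw [h]
  nlinarith

theorem pow_le (n : ℕ) : ((n : ℝ) + 3) ^ (n + 1) ≤ 7.39 * ((n : ℝ) + 1) ^ (n + 1) := by
  have h0 : (0 : ℝ) < (n : ℝ) + 1 := by positivity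
  have h1 : (n : ℝ) + 3 = (2 / ((n : ℝ) + 1) + 1) * ((n : ℝ) + 1) := by
    field_simp; ring
  have h2 : (2 / ((n : ℝ) + 1) + 1) ^ (n + 1) ≤ Real.exp 2 := by
    have h3 := Real.add_one_le_exp (2 / ((n : ℝ) + 1))
    have h4 : (0 : ℝ) ≤ 2 / ((n : ℝ) + 1) + 1 := by positivity
    refine (pow_le_pow_left₀ h4 h3 (n + 1)).trans (le_of_eq ?_)
    rw [← Real.exp_nat_mul]
    congr 1
    push_cast
    field_simp
  rw [h1, mul_pow]
  exact mul_le_mul_of_nonneg_right (h2.trans exp_two_lt.le) (by positivity)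

/-- the constant -/
noncomputable def c (n : ℕ) : ℝ := (2 * ((n : ℝ) + 1) / ((n : ℝ) + 2) - 24 / 25) / 4

theorem c_step (n : ℕ) (hn : 4 ≤ n) :
    c (n + 1) * ((n : ℝ) + 2) ^ 2 * 7.39 ≤ 12 * ((n : ℝ) + 1) ^ 2 * c n := by
  obtain ⟨t, rfl⟩ := Nat.exists_eq_add_of_le hn
  unfold c
  push_cast
  have ht : (0 : ℝ) ≤ t := Nat.cast_nonneg t
  rw [← sub_nonneg]
  have h : 12 * (4 + (t : ℝ) + 1) ^ 2 * ((2 * (4 + (t : ℝ) + 1) / (4 + (t : ℝ) + 2) - 24 / 25) / 4) -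
      (2 * (4 + (t : ℝ) + 1 + 1) / (4 + (t : ℝ) + 1 + 2) - 24 / 25) / 4 *
        (4 + (t : ℝ) + 2) ^ 2 * 7.39 =
      (12 * (5 + t) ^ 2 * (1.04 * t + 4.24) * (t + 7) - (1.04 * t + 5.28) * (t + 6) ^ 3 * 7.39) /
        (4 * ((t + 6) * (t + 7))) := by
    field_simp
    ring
  rw [h]
  apply div_nonneg _ (by positivity)
  have h2 : 12 * (5 + (t : ℝ)) ^ 2 * (1.04 * t + 4.24) * (t + 7) -
      (1.04 * t + 5.28) * (t + 6) ^ 3 * 7.39 = 0 + ((12 * 1.04 - 1.04 * 7.39) * t ^ 4 +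
      (12 * (1.04 * 17 + 4.24) - 7.39 * (1.04 * 18 + 5.28)) * t ^ 3 +
      (12 * (1.04 * 95 + 4.24 * 17) - 7.39 * (1.04 * 108 + 5.28 * 18)) * t ^ 2 +
      (12 * (1.04 * 175 + 4.24 * 95) - 7.39 * (1.04 * 216 + 5.28 * 108)) * t +
      (12 * (4.24 * 175) - 7.39 * (5.28 * 216))) := by ring
  rw [h2]
  have h3 : (0 : ℝ) ≤ t ^ 2 := by positivity
  have h4 : (0 : ℝ) ≤ t ^ 3 := by positivity
  have h5 : (0 : ℝ) ≤ t ^ 4 := by positivity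
  norm_num
  linarith

theorem main (n : ℕ) (hn : 4 ≤ n) :
    c n * (((n : ℝ) + 1) ^ (n + 1) * ((n : ℝ) + 2) ^ n) < 12 ^ (n - 1) * (n.factorial : ℝ) ^ 2 := by
  induction n, hn using Nat.le_induction with
  | base =>
    unfold c
    norm_num [Nat.factorial]
  | succ n hn ih =>
    have h1 := pow_le n
    have h2 := c_step n hn
    have hp : (0 : ℝ) < ((n : ℝ) + 1) := by positivity
    have hp2 : (0 : ℝ) < ((n : ℝ) + 2) := by positivity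
    have hc : 0 ≤ c (n + 1) := by
      unfold c
      have : (24 / 25 : ℝ) ≤ 2 * (((n + 1 : ℕ) : ℝ) + 1) / (((n + 1 : ℕ) : ℝ) + 2) := by
        rw [le_div_iff₀ (by positivity)]
        push_cast
        linarith
      linarith
    have e1 : c (n + 1) * ((((n + 1 : ℕ) : ℝ) + 1) ^ (n + 1 + 1) * (((n + 1 : ℕ) : ℝ) + 2) ^ (n + 1))
        = c (n + 1) * ((n : ℝ) + 2) ^ 2 * ((n : ℝ) + 2) ^ n * ((n : ℝ) + 3) ^ (n + 1) := by
      push_cast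
      rw [show (n : ℝ) + 1 + 1 = n + 2 by ring, show (n : ℝ) + 1 + 2 = n + 3 by ring]
      ring
    have e2 : (12 : ℝ) ^ (n + 1 - 1) * (((n + 1).factorial : ℕ) : ℝ) ^ 2 =
        12 * ((n : ℝ) + 1) ^ 2 * (12 ^ (n - 1) * (n.factorial : ℝ) ^ 2) := by
      obtain ⟨k, rfl⟩ := Nat.exists_eq_add_of_le hn
      rw [Nat.factorial_succ]
      push_cast
      have e3 : (12 : ℝ) ^ (4 + k) = 12 ^ (4 + k - 1) * 12 := by
        rw [← pow_succ]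
        congr 1
        omega
      rw [e3]
      ring
    rw [e1, e2]
    have f1 : c (n + 1) * ((n : ℝ) + 2) ^ 2 * ((n : ℝ) + 2) ^ n * ((n : ℝ) + 3) ^ (n + 1) ≤
        c (n + 1) * ((n : ℝ) + 2) ^ 2 * ((n : ℝ) + 2) ^ n * (7.39 * ((n : ℝ) + 1) ^ (n + 1)) :=
      mul_le_mul_of_nonneg_left h1 (by positivity)
    have f2 : c (n + 1) * ((n : ℝ) + 2) ^ 2 * ((n : ℝ) + 2) ^ n * (7.39 * ((n : ℝ) + 1) ^ (n + 1)) =
        (c (n + 1) * ((n : ℝ) + 2) ^ 2 * 7.39) * (((n : ℝ) + 1) ^ (n + 1) * ((n : ℝ) + 2) ^ n) := by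
      ring
    have f3 : (c (n + 1) * ((n : ℝ) + 2) ^ 2 * 7.39) *
        (((n : ℝ) + 1) ^ (n + 1) * ((n : ℝ) + 2) ^ n) ≤
        (12 * ((n : ℝ) + 1) ^ 2 * c n) * (((n : ℝ) + 1) ^ (n + 1) * ((n : ℝ) + 2) ^ n) :=
      mul_le_mul_of_nonneg_right h2 (by positivity)
    have f4 : (12 * ((n : ℝ) + 1) ^ 2 * c n) * (((n : ℝ) + 1) ^ (n + 1) * ((n : ℝ) + 2) ^ n) =
        12 * ((n : ℝ) + 1) ^ 2 * (c n * (((n : ℝ) + 1) ^ (n + 1) * ((n : ℝ) + 2) ^ n)) := by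
      ring
    have f5 := mul_lt_mul_of_pos_left ih (by positivity : (0 : ℝ) < 12 * ((n : ℝ) + 1) ^ 2)
    linarith

end Num

/-- [R9] Num.lean -/
theorem numr (n : ℕ) (hn : 3 ≤ n) :
    (2 * ((n : ℝ) + 1) / ((n : ℝ) + 2) - 24 / 25) / 4 *
      (((n : ℝ) + 1) ^ (n + 1) * ((n : ℝ) + 2) ^ n) < 12 ^ (n - 1) * (n.factorial : ℝ) ^ 2 := by
  rcases Nat.lt_or_ge n 4 with h | h
  · obtain rfl : n = 3 := by omega
    norm_num [Nat.factorial]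
  · exact Num.main n h

end Vale.Agent.P254r
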