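import Mathlib

/-! P254r, row R3: the two sides together (real arithmetic). -/

namespace Vale.Agent.P254r

namespace Poly

theorem one_var {q : ℝ} (h0 : 0 ≤ q) (h1 : q ≤ 1) :
    (1 + q) ^ 2 * ((1 - q) ^ 3 * (8 / 5 - (1 - q)) + q ^ 3 * (8 / 5 - q) / 4 +
      (1 - q) ^ 2 * q ^ 2) ≤ 16 / 25 := by
  rcases le_total q (1 / 4) with h | h
  · have ha : 0 ≤ q - 0 := by linarith
    have hb : 0 ≤ 1 / 4 - q := by linarith
    have key : 16 / 25 - (1 + q) ^ 2 * ((1 - q) ^ 3 * (8 / 5 - (1 - q)) + q ^ 3 * (8 / 5 - q) / 4 +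
      (1 - q) ^ 2 * q ^ 2) = (4096/25) * ((q - 0) ^ 0 * (1/4 - q) ^ 6) +
      (14336/25) * ((q - 0) ^ 1 * (1/4 - q) ^ 5) + (3584/5) * ((q - 0) ^ 2 * (1/4 - q) ^ 4) +
      (2176/5) * ((q - 0) ^ 3 * (1/4 - q) ^ 3) + (1316/5) * ((q - 0) ^ 4 * (1/4 - q) ^ 2) +
      (5066/25) * ((q - 0) ^ 5 * (1/4 - q) ^ 1) + (6769/100) * ((q - 0) ^ 6 * (1/4 - q) ^ 0) := by
      ring
    have : 0 ≤ 16 / 25 - (1 + q) ^ 2 * ((1 - q) ^ 3 * (8 / 5 - (1 - q)) +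
        q ^ 3 * (8 / 5 - q) / 4 + (1 - q) ^ 2 * q ^ 2) := by
      rw [key]; positivity
    linarith
  rcases le_total q (1 / 2) with h' | h'
  · have ha : 0 ≤ q - 1/4 := by linarith
    have hb : 0 ≤ 1 / 2 - q := by linarith
    have key : 16 / 25 - (1 + q) ^ 2 * ((1 - q) ^ 3 * (8 / 5 - (1 - q)) + q ^ 3 * (8 / 5 - q) / 4 +
      (1 - q) ^ 2 * q ^ 2) = (6769/100) * ((q - 1/4) ^ 0 * (1/2 - q) ^ 6) +
      (15241/25) * ((q - 1/4) ^ 1 * (1/2 - q) ^ 5) + (11491/5) * ((q - 1/4) ^ 2 * (1/2 - q) ^ 4) +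
      (21976/5) * ((q - 1/4) ^ 3 * (1/2 - q) ^ 3) + (22284/5) * ((q - 1/4) ^ 4 * (1/2 - q) ^ 2) +
      (56976/25) * ((q - 1/4) ^ 5 * (1/2 - q) ^ 1) +
      (11536/25) * ((q - 1/4) ^ 6 * (1/2 - q) ^ 0) := by
      ring
    have : 0 ≤ 16 / 25 - (1 + q) ^ 2 * ((1 - q) ^ 3 * (8 / 5 - (1 - q)) +
        q ^ 3 * (8 / 5 - q) / 4 + (1 - q) ^ 2 * q ^ 2) := by
      rw [key]; positivity
    linarith
  · have ha : 0 ≤ q - 1/2 := by linarith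
    have hb : 0 ≤ 1 - q := by linarith
    have key : 16 / 25 - (1 + q) ^ 2 * ((1 - q) ^ 3 * (8 / 5 - (1 - q)) + q ^ 3 * (8 / 5 - q) / 4 +
      (1 - q) ^ 2 * q ^ 2) = (721/100) * ((q - 1/2) ^ 0 * (1 - q) ^ 6) +
      (1464/25) * ((q - 1/2) ^ 1 * (1 - q) ^ 5) + (918/5) * ((q - 1/2) ^ 2 * (1 - q) ^ 4) +
      (1384/5) * ((q - 1/2) ^ 3 * (1 - q) ^ 3) + (1012/5) * ((q - 1/2) ^ 4 * (1 - q) ^ 2) +
      (1504/25) * ((q - 1/2) ^ 5 * (1 - q) ^ 1) + (64/25) * ((q - 1/2) ^ 6 * (1 - q) ^ 0) := by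
      ring
    have : 0 ≤ 16 / 25 - (1 + q) ^ 2 * ((1 - q) ^ 3 * (8 / 5 - (1 - q)) +
        q ^ 3 * (8 / 5 - q) / 4 + (1 - q) ^ 2 * q ^ 2) := by
      rw [key]; positivity
    linarith

theorem coeff {q : ℝ} (h0 : 0 ≤ q) (h1 : q ≤ 1) :
    (1 + q) ^ 2 * ((1 - q) ^ 3 + q ^ 3 / 4) ≤ 1 := by
  have ha : 0 ≤ q := h0
  have hb : 0 ≤ 1 - q := by linarith
  have key : 1 - (1 + q) ^ 2 * ((1 - q) ^ 3 + q ^ 3 / 4) = q * (1 - q) ^ 4 +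
      6 * (q ^ 2 * (1 - q) ^ 3) + (39/4) * (q ^ 3 * (1 - q) ^ 2) + 4 * (q ^ 4 * (1 - q)) := by
    ring
  have : 0 ≤ 1 - (1 + q) ^ 2 * ((1 - q) ^ 3 + q ^ 3 / 4) := by
    rw [key]; positivity
  linarith

theorem end2 {κ q : ℝ} (hκ : 8 / 5 ≤ κ) (h0 : 0 ≤ q) (h1 : q ≤ 1) :
    (1 + q) ^ 2 * ((1 - q) ^ 3 * (κ - (1 - q)) + q ^ 3 * (κ - q) / 4 +
      (1 - q) ^ 2 * q ^ 2) ≤ κ - 24 / 25 := by
  have a := one_var h0 h1
  have b := mul_le_mul_of_nonneg_left (coeff h0 h1) (sub_nonneg.2 hκ)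
  have e : (1 + q) ^ 2 * ((1 - q) ^ 3 * (κ - (1 - q)) + q ^ 3 * (κ - q) / 4 +
      (1 - q) ^ 2 * q ^ 2) = (1 + q) ^ 2 * ((1 - q) ^ 3 * (8 / 5 - (1 - q)) +
      q ^ 3 * (8 / 5 - q) / 4 + (1 - q) ^ 2 * q ^ 2) +
      (κ - 8 / 5) * ((1 + q) ^ 2 * ((1 - q) ^ 3 + q ^ 3 / 4)) := by ring
  rw [e]
  linarith

/-- The function `Φ`. -/
theorem phi {κ p q ρ r : ℝ} (hκ : 8 / 5 ≤ κ) (hp : 0 ≤ p) (hq : 0 ≤ q) (hpq : p + q = 1)
    (hρ : 1 / 2 ≤ ρ) (hρ2 : ρ ≤ 2) (hr : ρ * r = 1) :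
    p ^ 3 * (κ - p) * (p + q * ρ) ^ 2 + q ^ 3 * (κ - q) * (q + p * r) ^ 2 +
      2 * p ^ 2 * q ^ 2 * ((p + q * ρ) * (q + p * r)) ≤ κ - 24 / 25 := by
  have hp1 : p ≤ 1 := by linarith
  have hq1 : q ≤ 1 := by linarith
  have hρ0 : 0 < ρ := by linarith
  have hr0 : 0 < r := by
    by_contra h
    rw [not_lt] at h
    nlinarith
  have e1 : ρ ^ 2 ≤ 5 / 2 * ρ - 1 := by nlinarith
  have e2 : r ≤ 5 / 2 - ρ := by
    have : ρ * (5 / 2 - ρ - r) ≥ 0 := by nlinarith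
    by_contra h
    rw [not_le] at h
    nlinarith
  have hr2 : r ≤ 2 := by linarith
  have hr1 : 1 / 2 ≤ r := by nlinarith
  have e3 : r ^ 2 ≤ 5 / 2 * r - 1 := by nlinarith
  have e4 : r ^ 2 ≤ 21 / 4 - 5 / 2 * ρ := by linarith
  -- the two end points
  have a2 := end2 hκ hq hq1
  have a1 := end2 hκ hp hp1
  have hp' : 1 - q = p := by linarith
  have hq' : 1 - p = q := by linarith
  rw [hp'] at a2
  rw [hq'] at a1
  -- coefficients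
  have c1 : 0 ≤ p ^ 3 * (κ - p) := mul_nonneg (pow_nonneg hp 3) (by linarith)
  have c2 : 0 ≤ q ^ 3 * (κ - q) := mul_nonneg (pow_nonneg hq 3) (by linarith)
  have c3 : 0 ≤ 2 * p ^ 2 * q ^ 2 := by positivity
  have b1 : (p + q * ρ) ^ 2 ≤ p ^ 2 + 2 * p * q * ρ + q ^ 2 * (5 / 2 * ρ - 1) := by
    nlinarith [mul_le_mul_of_nonneg_left e1 (sq_nonneg q)]
  have b2 : (q + p * r) ^ 2 ≤ q ^ 2 + 2 * p * q * (5 / 2 - ρ) + p ^ 2 * (21 / 4 - 5 / 2 * ρ) := by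
    nlinarith [mul_le_mul_of_nonneg_left e4 (sq_nonneg p),
      mul_le_mul_of_nonneg_left e2 (mul_nonneg hp hq)]
  have b3 : (p + q * ρ) * (q + p * r) ≤ 2 * p * q + q ^ 2 * ρ + p ^ 2 * (5 / 2 - ρ) := by
    have : (p + q * ρ) * (q + p * r) = p * q + q ^ 2 * ρ + p ^ 2 * r + p * q * (ρ * r) := by ring
    rw [this, hr]
    nlinarith [mul_le_mul_of_nonneg_left e2 (sq_nonneg p)]
  have s1 := mul_le_mul_of_nonneg_left b1 c1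
  have s2 := mul_le_mul_of_nonneg_left b2 c2
  have s3 := mul_le_mul_of_nonneg_left b3 c3
  -- the linear function of `ρ`
  have hl : 0 ≤ (2 * ρ - 1) / 3 := by linarith
  have hl' : 0 ≤ (4 - 2 * ρ) / 3 := by linarith
  have t2 := mul_le_mul_of_nonneg_left a2 hl
  have t1 := mul_le_mul_of_nonneg_left a1 hl'
  have hq2 : q = 1 - p := by linarith
  have fin : p ^ 3 * (κ - p) * (p ^ 2 + 2 * p * q * ρ + q ^ 2 * (5 / 2 * ρ - 1)) +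
      q ^ 3 * (κ - q) * (q ^ 2 + 2 * p * q * (5 / 2 - ρ) + p ^ 2 * (21 / 4 - 5 / 2 * ρ)) +
      2 * p ^ 2 * q ^ 2 * (2 * p * q + q ^ 2 * ρ + p ^ 2 * (5 / 2 - ρ)) =
      (2 * ρ - 1) / 3 * ((1 + q) ^ 2 * (p ^ 3 * (κ - p) + q ^ 3 * (κ - q) / 4 + p ^ 2 * q ^ 2)) +
      (4 - 2 * ρ) / 3 * ((1 + p) ^ 2 * (q ^ 3 * (κ - q) + p ^ 3 * (κ - p) / 4 + q ^ 2 * p ^ 2)) := by
    rw [hq2]
    ring
  have sm : (2 * ρ - 1) / 3 * (κ - 24 / 25) + (4 - 2 * ρ) / 3 * (κ - 24 / 25) = κ - 24 / 25 := by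
    ring
  linarith

/-- The case where both sides are nontrivial. -/
theorem main_case {κ a V1 V2 T1 T2 S1 S2 Q1 Q2 : ℝ} (hκ : 8 / 5 ≤ κ)
    (ha : 0 < a) (hV1 : 0 < V1) (hV2 : 0 < V2) (hT1 : 0 ≤ T1) (hT2 : 0 ≤ T2)
    (h1 : 2 * T1 * Q1 ≤ V1 ^ 3) (h2 : 2 * T2 * Q2 ≤ V2 ^ 3)
    (hS1 : S1 * V1 ≤ κ * T1 ^ 2) (hS2 : S2 * V2 ≤ κ * T2 ^ 2)
    (l1 : a * V1 ≤ 2 * Q1) (u1 : Q1 ≤ a * V1) (l2 : a * V2 ≤ 2 * Q2) (u2 : Q2 ≤ a * V2) :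
    ((S1 + S2) * (V1 + V2) - (T1 - T2) ^ 2) * (Q1 + Q2) ^ 2 ≤
      (κ - 24 / 25) / 4 * (V1 + V2) ^ 6 := by
  have hQ1 : 0 < Q1 := by
    have := mul_pos ha hV1
    linarith
  have hQ2 : 0 < Q2 := by
    have := mul_pos ha hV2
    linarith
  set V := V1 + V2 with hV
  have hVp : 0 < V := by linarith
  set p := V1 / V with hp
  set q := V2 / V with hq
  have hp0 : 0 < p := div_pos hV1 hVp
  have hq0 : 0 < q := div_pos hV2 hVp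
  have hpq : p + q = 1 := by
    rw [hp, hq, ← add_div, ← hV, div_self hVp.ne']
  have e1 : V1 = p * V := by rw [hp, div_mul_cancel₀ _ hVp.ne']
  have e2 : V2 = q * V := by rw [hq, div_mul_cancel₀ _ hVp.ne']
  set ρ := Q2 * V1 / (Q1 * V2) with hρ
  set r := Q1 * V2 / (Q2 * V1) with hr
  have hρr : ρ * r = 1 := by
    rw [hρ, hr]
    field_simp
  have hρ1 : 1 / 2 ≤ ρ := by
    rw [hρ, le_div_iff₀ (mul_pos hQ1 hV2)]
    nlinarith [mul_le_mul_of_nonneg_right u1 hV2.le, mul_le_mul_of_nonneg_right l2 hV1.le]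
  have hρ2 : ρ ≤ 2 := by
    rw [hρ, div_le_iff₀ (mul_pos hQ1 hV2)]
    nlinarith [mul_le_mul_of_nonneg_right u2 hV1.le, mul_le_mul_of_nonneg_right l1 hV2.le]
  have hphi := phi hκ hp0.le hq0.le hpq hρ1 hρ2 hρr
  have hρ0 : 0 < ρ := by linarith
  have hr0 : 0 < r := by
    rw [hr]
    positivity
  set Q := Q1 + Q2 with hQ
  have hQ0 : 0 < Q := by linarith
  -- the bounds for `T_i Q`
  have x1 : T1 * Q ≤ V ^ 3 * p ^ 2 * (p + q * ρ) / 2 := by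
    have c : V ^ 3 * p ^ 2 * (p + q * ρ) / 2 = V1 ^ 3 / 2 * (Q / Q1) := by
      have : V ^ 3 * p ^ 2 * (p + q * ρ) = V1 ^ 3 * (Q / Q1) := by
        have h3 : V * (p + q * ρ) = V1 * (Q / Q1) := by
          have : V * (p + q * ρ) = V1 + V2 * ρ := by rw [e1, e2]; ring
          rw [this, hρ, hQ]
          field_simp
        calc V ^ 3 * p ^ 2 * (p + q * ρ) = (p * V) ^ 2 * (V * (p + q * ρ)) := by ring
          _ = V1 ^ 3 * (Q / Q1) := by rw [h3, ← e1]; ring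
      rw [this]
      ring
    rw [c]
    have d : T1 * Q = T1 * Q1 * (Q / Q1) := by
      field_simp
    rw [d]
    exact mul_le_mul_of_nonneg_right (by linarith) (by positivity)
  have x2 : T2 * Q ≤ V ^ 3 * q ^ 2 * (q + p * r) / 2 := by
    have c : V ^ 3 * q ^ 2 * (q + p * r) / 2 = V2 ^ 3 / 2 * (Q / Q2) := by
      have : V ^ 3 * q ^ 2 * (q + p * r) = V2 ^ 3 * (Q / Q2) := by
        have h3 : V * (q + p * r) = V2 * (Q / Q2) := by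
          have : V * (q + p * r) = V2 + V1 * r := by rw [e1, e2]; ring
          rw [this, hr, hQ]
          field_simp
          ring
        calc V ^ 3 * q ^ 2 * (q + p * r) = (q * V) ^ 2 * (V * (q + p * r)) := by ring
          _ = V2 ^ 3 * (Q / Q2) := by rw [h3, ← e2]; ring
      rw [this]
      ring
    rw [c]
    have d : T2 * Q = T2 * Q2 * (Q / Q2) := by
      field_simp
    rw [d]
    exact mul_le_mul_of_nonneg_right (by linarith) (by positivity)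
  set X1 := V ^ 3 * p ^ 2 * (p + q * ρ) / 2 with hX1
  set X2 := V ^ 3 * q ^ 2 * (q + p * r) / 2 with hX2
  have y1 : 0 ≤ T1 * Q := by positivity
  have y2 : 0 ≤ T2 * Q := by positivity
  have z1 : S1 * V ≤ κ / p * T1 ^ 2 := by
    rw [div_mul_eq_mul_div, le_div_iff₀ hp0]
    calc S1 * V * p = S1 * V1 := by rw [e1]; ring
      _ ≤ κ * T1 ^ 2 := hS1
  have z2 : S2 * V ≤ κ / q * T2 ^ 2 := by
    rw [div_mul_eq_mul_div, le_div_iff₀ hq0]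
    calc S2 * V * q = S2 * V2 := by rw [e2]; ring
      _ ≤ κ * T2 ^ 2 := hS2
  have k1 : 0 ≤ κ / p - 1 := by
    rw [sub_nonneg, le_div_iff₀ hp0]
    linarith
  have k2 : 0 ≤ κ / q - 1 := by
    rw [sub_nonneg, le_div_iff₀ hq0]
    linarith
  calc ((S1 + S2) * V - (T1 - T2) ^ 2) * Q ^ 2
      ≤ (κ / p * T1 ^ 2 + κ / q * T2 ^ 2 - (T1 - T2) ^ 2) * Q ^ 2 := by
        refine mul_le_mul_of_nonneg_right ?_ (sq_nonneg Q)
        linarith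
    _ = (κ / p - 1) * (T1 * Q) ^ 2 + (κ / q - 1) * (T2 * Q) ^ 2 + 2 * ((T1 * Q) * (T2 * Q)) := by
        ring
    _ ≤ (κ / p - 1) * X1 ^ 2 + (κ / q - 1) * X2 ^ 2 + 2 * (X1 * X2) := by
        have w1 : (T1 * Q) ^ 2 ≤ X1 ^ 2 := pow_le_pow_left₀ y1 x1 2
        have w2 : (T2 * Q) ^ 2 ≤ X2 ^ 2 := pow_le_pow_left₀ y2 x2 2
        have w3 : (T1 * Q) * (T2 * Q) ≤ X1 * X2 := mul_le_mul x1 x2 y2 (y1.trans x1)
        have v1 := mul_le_mul_of_nonneg_left w1 k1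
        have v2 := mul_le_mul_of_nonneg_left w2 k2
        linarith
    _ = (p ^ 3 * (κ - p) * (p + q * ρ) ^ 2 + q ^ 3 * (κ - q) * (q + p * r) ^ 2 +
          2 * p ^ 2 * q ^ 2 * ((p + q * ρ) * (q + p * r))) / 4 * V ^ 6 := by
        rw [hX1, hX2]
        have i1 : (κ / p - 1) * p = κ - p := by field_simp
        have i2 : (κ / q - 1) * q = κ - q := by field_simp
        rw [← i1, ← i2]
        ring
    _ ≤ (κ - 24 / 25) / 4 * V ^ 6 := by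
        refine mul_le_mul_of_nonneg_right ?_ (by positivity)
        linarith

/-- The case where one side is trivial. -/
theorem one_side {κ V T S Q : ℝ} (hκ : 8 / 5 ≤ κ) (hV : 0 ≤ V) (hT : 0 ≤ T) (hQ : 0 ≤ Q)
    (hz : V = 0 → T = 0 ∧ S = 0) (h : 2 * T * Q ≤ V ^ 3) (hS : S * V ≤ κ * T ^ 2) :
    (S * V - T ^ 2) * Q ^ 2 ≤ (κ - 24 / 25) / 4 * V ^ 6 := by
  have h1 : (T * Q) ^ 2 ≤ (V ^ 3 / 2) ^ 2 :=
    pow_le_pow_left₀ (mul_nonneg hT hQ) (by linarith) 2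
  calc (S * V - T ^ 2) * Q ^ 2 ≤ (κ * T ^ 2 - T ^ 2) * Q ^ 2 := by
        refine mul_le_mul_of_nonneg_right ?_ (sq_nonneg Q)
        linarith
    _ = (κ - 1) * (T * Q) ^ 2 := by ring
    _ ≤ (κ - 1) * (V ^ 3 / 2) ^ 2 := mul_le_mul_of_nonneg_left h1 (by linarith)
    _ = (κ - 1) / 4 * V ^ 6 := by ring
    _ ≤ (κ - 24 / 25) / 4 * V ^ 6 := by
        refine mul_le_mul_of_nonneg_right (by linarith) (by positivity)

end Poly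

theorem two_side {κ a V1 V2 T1 T2 S1 S2 Q1 Q2 : ℝ} (hκ : 8 / 5 ≤ κ) (hκ2 : κ ≤ 2)
    (ha : 0 < a) (hV1 : 0 ≤ V1) (hV2 : 0 ≤ V2) (hT1 : 0 ≤ T1) (hT2 : 0 ≤ T2)
    (hz1 : V1 = 0 → T1 = 0 ∧ S1 = 0) (hz2 : V2 = 0 → T2 = 0 ∧ S2 = 0)
    (h1 : 2 * T1 * Q1 ≤ V1 ^ 3) (h2 : 2 * T2 * Q2 ≤ V2 ^ 3)
    (hS1 : S1 * V1 ≤ κ * T1 ^ 2) (hS2 : S2 * V2 ≤ κ * T2 ^ 2)
    (l1 : a * V1 ≤ 2 * Q1) (u1 : Q1 ≤ a * V1) (l2 : a * V2 ≤ 2 * Q2) (u2 : Q2 ≤ a * V2) :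
    ((S1 + S2) * (V1 + V2) - (T1 - T2) ^ 2) * (Q1 + Q2) ^ 2 ≤
      (κ - 24 / 25) / 4 * (V1 + V2) ^ 6 := by
  have q1 : 0 ≤ Q1 := by
    have := mul_nonneg ha.le hV1
    linarith
  have q2 : 0 ≤ Q2 := by
    have := mul_nonneg ha.le hV2
    linarith
  rcases hV1.eq_or_lt with h | h
  · obtain ⟨t, s⟩ := hz1 h.symm
    have hq : Q1 = 0 := by
      rw [← h, mul_zero] at u1
      linarith
    have := Poly.one_side hκ hV2 hT2 q2 hz2 h2 hS2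
    rw [t, s, hq, ← h, zero_add, zero_add, zero_add]
    have e : (S2 * V2 - (0 - T2) ^ 2) * Q2 ^ 2 = (S2 * V2 - T2 ^ 2) * Q2 ^ 2 := by ring
    rw [e]
    exact this
  rcases hV2.eq_or_lt with h' | h'
  · obtain ⟨t, s⟩ := hz2 h'.symm
    have hq : Q2 = 0 := by
      rw [← h', mul_zero] at u2
      linarith
    have := Poly.one_side hκ hV1 hT1 q1 hz1 h1 hS1
    rw [t, s, hq, ← h', add_zero, add_zero, add_zero, sub_zero]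
    exact this
  · exact Poly.main_case hκ ha h h' hT1 hT2 h1 h2 hS1 hS2 l1 u1 l2 u2

end Vale.Agent.P254r
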